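import Mathlib

/-!
Definitions for the logarithmic Brunn-Minkowski problem (P227), following the problem text:
convex bodies in Euclidean space, support functions, Wulff bodies, logarithmic combinations.
-/

namespace Vale.Agent.Lib.P227

/-- Euclidean `n`-space with its standard inner product. -/
abbrev Eu (n : ℕ) : Type := EuclideanSpace ℝ (Fin n)

/-- A convex body: a compact convex set with nonempty interior. -/
def IsConvexBody {n : ℕ} (K : Set (Eu n)) : Prop :=
  IsCompact K ∧ Convex ℝ K ∧ (interior K).Nonempty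

/-- Origin symmetry `K = -K`. -/
def IsOriginSymmetric {n : ℕ} (K : Set (Eu n)) : Prop :=
  ∀ x ∈ K, -x ∈ K

/-- The support function `h_K(u) = sup_{x ∈ K} ⟨x, u⟩`. -/
noncomputable def supportFn {n : ℕ} (K : Set (Eu n)) (u : Eu n) : ℝ :=
  sSup ((fun x : Eu n => inner ℝ x u) '' K)

/-- The Wulff body of `f`: all `x` with `⟨x, u⟩ ≤ f u` for every unit vector `u`. -/
def wulff {n : ℕ} (f : Eu n → ℝ) : Set (Eu n) :=
  {x | ∀ u : Eu n, ‖u‖ = 1 → inner ℝ x u ≤ f u}

/-- The logarithmic combination `(1 - t) K +_0 t L = W[h_K^(1-t) h_L^t]`. -/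
noncomputable def logComb {n : ℕ} (K L : Set (Eu n)) (t : ℝ) : Set (Eu n) :=
  wulff (fun u => supportFn K u ^ (1 - t) * supportFn L u ^ t)

end Vale.Agent.Lib.P227
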