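import Vale.Agent.Lib.P227.Defs

/-!
The logarithmic Brunn-Minkowski inequality for the pair `(K, K + [-v, v])`,
`K` an arbitrary origin-symmetric convex body.
-/

namespace Vale.Agent.Lib.P227

open MeasureTheory Set
open scoped Classical Pointwise

/-- chord inequality for the concave function x^t -/
lemma chord_rpow {t r R : ℝ} (ht0 : 0 ≤ t) (ht1 : t ≤ 1) (hr : 0 ≤ r) (hrR : r ≤ R) (hR : 0 < R) :
    1 + r / R * ((1 + R) ^ t - 1) ≤ (1 + r) ^ t := by
  have hc := Real.concaveOn_rpow ht0 ht1
  have h1 : (1:ℝ) ∈ Set.Ici (0:ℝ) := by simp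
  have h2 : (1 + R) ∈ Set.Ici (0:ℝ) := by simp; linarith
  have ha : 0 ≤ 1 - r / R := by
    rw [sub_nonneg, div_le_one hR]; exact hrR
  have hb : 0 ≤ r / R := by positivity
  have := hc.2 h1 h2 ha hb (by ring)
  simp only [smul_eq_mul, Real.one_rpow, mul_one] at this
  have e : 1 - r / R + r / R * (1 + R) = 1 + r := by
    field_simp; ring
  rw [e] at this
  linarith

/-- thickening of a subset of the line -/
lemma thick_line (A : Set ℝ) (hc : IsCompact A) (hconv : Convex ℝ A) {t : ℝ} (ht : 0 ≤ t) :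
    volume {a : ℝ | ∃ b ∈ A, |a - b| ≤ t}
      = volume A + ENNReal.ofReal (2 * t) * (if A.Nonempty then 1 else 0) := by
  by_cases hne : A.Nonempty
  · have hconn : IsConnected A := ⟨hne, hconv.isPreconnected⟩
    have hA := eq_Icc_of_connected_compact hconn hc
    set α := sInf A
    set β := sSup A
    have hαβ : α ≤ β := by
      obtain ⟨x, hx⟩ := hne
      rw [hA] at hx
      exact hx.1.trans hx.2
    have h2 : {a : ℝ | ∃ b ∈ A, |a - b| ≤ t} = Icc (α - t) (β + t) := by
      ext a
      simp only [Set.mem_ofPred_eq, mem_Icc]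
      constructor
      · rintro ⟨b, hb, hab⟩
        rw [hA] at hb
        rw [abs_le] at hab
        constructor <;> linarith [hb.1, hb.2, hab.1, hab.2]
      · rintro ⟨h1, h2⟩
        refine ⟨max α (min a β), ?_, ?_⟩
        · rw [hA]
          exact ⟨le_max_left _ _, max_le hαβ (min_le_right _ _)⟩
        · rw [abs_le]
          rcases le_total a β with h | h
          · rw [min_eq_left h]
            rcases le_total α a with h' | h'
            · rw [max_eq_right h']; constructor <;> linarith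
            · rw [max_eq_left h']; constructor <;> linarith
          · rw [min_eq_right h, max_eq_right hαβ]; constructor <;> linarith
    rw [h2, if_pos hne, mul_one]
    conv_rhs => rw [hA]
    rw [Real.volume_Icc, Real.volume_Icc, ← ENNReal.ofReal_add (by linarith) (by linarith)]
    congr 1; ring
  · rw [if_neg hne]
    rw [not_nonempty_iff_eq_empty] at hne
    subst hne
    simp

/-- thickening in the last coordinate -/
def thick {E' : Type*} (S : Set (E' × ℝ)) (t : ℝ) : Set (E' × ℝ) :=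
  {p | ∃ b, (p.1, b) ∈ S ∧ |p.2 - b| ≤ t}

lemma thick_volume {E' : Type*} [MeasurableSpace E'] (ν : Measure E') [SFinite ν]
    (S : Set (E' × ℝ)) (hS : MeasurableSet S)
    (hsec : ∀ y, IsCompact (Prod.mk y ⁻¹' S) ∧ Convex ℝ (Prod.mk y ⁻¹' S))
    {t : ℝ} (ht : 0 ≤ t) (hSt : MeasurableSet (thick S t)) :
    (ν.prod volume) (thick S t) = (ν.prod volume) S + ENNReal.ofReal (2 * t) *
      ∫⁻ y, (if (Prod.mk y ⁻¹' S).Nonempty then 1 else 0) ∂ν := by
  rw [Measure.prod_apply hSt, Measure.prod_apply hS,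
    ← lintegral_const_mul' _ _ ENNReal.ofReal_ne_top,
    ← lintegral_add_left (measurable_measure_prodMk_left hS)]
  apply lintegral_congr
  intro y
  rw [← thick_line _ (hsec y).1 (hsec y).2 ht]
  rfl

lemma volume_le_chord {E' : Type*} [MeasurableSpace E'] (ν : Measure E') [SFinite ν]
    (S : Set (E' × ℝ)) (hS : MeasurableSet S) {τ : ℝ}
    (hchord : ∀ y, volume (Prod.mk y ⁻¹' S) ≤ ENNReal.ofReal τ) :
    (ν.prod volume) S ≤ ENNReal.ofReal τ *
      ∫⁻ y, (if (Prod.mk y ⁻¹' S).Nonempty then 1 else 0) ∂ν := by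
  rw [Measure.prod_apply hS, ← lintegral_const_mul' _ _ ENNReal.ofReal_ne_top]
  apply lintegral_mono
  intro y
  by_cases hne : (Prod.mk y ⁻¹' S).Nonempty
  · simp only [if_pos hne, mul_one]; exact hchord y
  · rw [not_nonempty_iff_eq_empty] at hne
    simp [hne]

lemma segment_smul_eq {E : Type*} [AddCommGroup E] [Module ℝ E] (v : E) {t : ℝ} (ht : 0 ≤ t) :
    segment ℝ (-(t • v)) (t • v) = (fun c : ℝ => c • v) '' Icc (-t) t := by
  have h := image_segment ℝ ((LinearMap.toSpanSingleton ℝ E v).toAffineMap) (-t) t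
  simp only [LinearMap.coe_toAffineMap, LinearMap.toSpanSingleton_apply, neg_smul] at h
  rw [← h, segment_eq_Icc (by linarith)]

lemma sec_compact {E' : Type*} [TopologicalSpace E'] [T1Space E'] (S : Set (E' × ℝ))
    (hS : IsCompact S) (y : E') : IsCompact (Prod.mk y ⁻¹' S) := by
  have h1 : IsCompact (S ∩ (Prod.fst ⁻¹' {y})) :=
    hS.inter_right (isClosed_singleton.preimage continuous_fst)
  have h2 : Prod.mk y ⁻¹' S = Prod.snd '' (S ∩ (Prod.fst ⁻¹' {y})) := by
    ext a
    constructor
    · intro ha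
      exact ⟨(y, a), ⟨ha, rfl⟩, rfl⟩
    · rintro ⟨⟨y', a'⟩, ⟨h, hy⟩, rfl⟩
      simp only [mem_preimage, mem_singleton_iff] at hy
      subst hy
      exact h
  rw [h2]
  exact h1.image continuous_snd

lemma sec_convex {E' : Type*} [AddCommGroup E'] [Module ℝ E'] (S : Set (E' × ℝ))
    (hS : Convex ℝ S) (y : E') : Convex ℝ (Prod.mk y ⁻¹' S) := by
  intro a ha b hb α β hα hβ hαβ
  have := hS ha hb hα hβ hαβ
  have e : α • (y, a) + β • (y, b) = (y, α • a + β • b) := by
    ext
    · simp [← add_smul, hαβ]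
    · simp
  rw [e] at this
  exact this

lemma line_volume_le (A : Set ℝ) (hc : IsCompact A) (hconv : Convex ℝ A) {τ : ℝ}
    (h : ∀ a ∈ A, ∀ b ∈ A, b - a ≤ τ) : volume A ≤ ENNReal.ofReal τ := by
  by_cases hne : A.Nonempty
  · have hconn : IsConnected A := ⟨hne, hconv.isPreconnected⟩
    have hA := eq_Icc_of_connected_compact hconn hc
    have h1 : sInf A ∈ A := hc.sInf_mem hne
    have h2 : sSup A ∈ A := hc.sSup_mem hne
    rw [hA, Real.volume_Icc]
    exact ENNReal.ofReal_le_ofReal (h _ h1 _ h2)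
  · rw [not_nonempty_iff_eq_empty] at hne
    subst hne
    simp

/-- Volume of `K + [-tv, tv]` is affine in `t`, with slope controlled by the longest chord. -/
lemma exists_slope {E : Type*} [NormedAddCommGroup E] [NormedSpace ℝ E] [FiniteDimensional ℝ E]
    [MeasurableSpace E] [BorelSpace E] (μ : Measure E) [μ.IsAddHaarMeasure]
    (K : Set E) (hKc : IsCompact K) (hKconv : Convex ℝ K) (hKsymm : ∀ x ∈ K, -x ∈ K)
    (v : E) (hv : v ≠ 0) (ρ : ℝ) (hρ : ∀ a : ℝ, a • v ∈ K → a ≤ ρ) :
    ∃ B : ENNReal, (∀ t : ℝ, 0 ≤ t →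
        μ (K + segment ℝ (-(t • v)) (t • v)) = μ K + ENNReal.ofReal (2 * t) * B) ∧
      μ K ≤ ENNReal.ofReal (2 * ρ) * B := by
  have : Nontrivial E := nontrivial_iff.2 ⟨v, 0, hv⟩
  let n := Module.finrank ℝ E
  let E' := Fin (n - 1) → ℝ
  obtain ⟨L, hL⟩ : ∃ L : E ≃L[ℝ] (E' × ℝ), L v = (0, 1) := by
    have : Module.finrank ℝ (E' × ℝ) = n := by
      simpa [this, E'] using Nat.sub_add_cancel Module.finrank_pos
    have L₀ : E ≃L[ℝ] (E' × ℝ) := (ContinuousLinearEquiv.ofFinrankEq this).symm
    obtain ⟨M, hM⟩ : ∃ M : (E' × ℝ) ≃L[ℝ] (E' × ℝ), M (L₀ v) = (0, 1) := by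
      apply SeparatingDual.exists_continuousLinearEquiv_apply_eq
      · simpa using hv
      · simp
    exact ⟨L₀.trans M, by simp [hM]⟩
  let ν : Measure E' := volume
  let μ' : Measure (E' × ℝ) := Measure.map L μ
  have : μ'.IsAddHaarMeasure := L.isAddHaarMeasure_map μ
  set c := Measure.addHaarScalarFactor μ' (ν.prod volume) with hc
  have hμ' : μ' = c • (ν.prod volume) := Measure.isAddLeftInvariant_eq_smul _ _
  have hμ : ∀ A : Set E, μ A = c * (ν.prod volume) (L '' A) := by
    intro A
    have h1 : μ' (L '' A) = μ A := by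
      have := L.toHomeomorph.toMeasurableEquiv.map_apply (μ := μ) (L '' A)
      have h2 : (L.toHomeomorph.toMeasurableEquiv) ⁻¹' (L '' A) = A :=
        L.injective.preimage_image A
      rw [h2] at this
      exact this
    rw [← h1, hμ']
    rfl
  set S : Set (E' × ℝ) := L '' K with hS
  have hSc : IsCompact S := hKc.image L.continuous
  have hSconv : Convex ℝ S := hKconv.linear_image (L : E →ₗ[ℝ] (E' × ℝ))
  have hthick : ∀ t : ℝ, 0 ≤ t → L '' (K + segment ℝ (-(t • v)) (t • v)) = thick S t := by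
    intro t ht
    rw [segment_smul_eq v ht]
    ext p
    constructor
    · rintro ⟨x, ⟨k, hk, z, ⟨a, ha, rfl⟩, rfl⟩, rfl⟩
      refine ⟨(L k).2, ⟨k, hk, ?_⟩, ?_⟩
      · simp [hL]
      · simp only [map_add, map_smul, hL]
        simp only [Prod.snd_add, Prod.smul_snd, smul_eq_mul, mul_one, add_sub_cancel_left]
        exact abs_le.2 ha
    · rintro ⟨b, ⟨k, hk, hkb⟩, hb⟩
      refine ⟨k + (p.2 - b) • v, ⟨k, hk, (p.2 - b) • v, ⟨p.2 - b, abs_le.1 hb, rfl⟩, rfl⟩, ?_⟩
      simp only [map_add, map_smul, hL, hkb]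
      ext <;> simp
  refine ⟨c * ∫⁻ y, (if (Prod.mk y ⁻¹' S).Nonempty then 1 else 0) ∂ν, ?_, ?_⟩
  · intro t ht
    have hcomp : IsCompact (K + segment ℝ (-(t • v)) (t • v)) := by
      apply hKc.add
      rw [segment_smul_eq v ht]
      exact isCompact_Icc.image (by fun_prop)
    have hm : MeasurableSet (thick S t) := by
      rw [← hthick t ht]
      exact (hcomp.image L.continuous).isClosed.measurableSet
    rw [hμ, hμ, hthick t ht, thick_volume ν S hSc.isClosed.measurableSet
      (fun y => ⟨sec_compact S hSc y, sec_convex S hSconv y⟩) ht hm]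
    ring
  · rw [hμ]
    have := volume_le_chord ν S hSc.isClosed.measurableSet (τ := 2 * ρ) ?_
    · calc (c : ENNReal) * (ν.prod volume) S ≤ c * (ENNReal.ofReal (2 * ρ) *
            ∫⁻ y, (if (Prod.mk y ⁻¹' S).Nonempty then 1 else 0) ∂ν) := by gcongr
        _ = _ := by ring
    · intro y
      apply line_volume_le _ (sec_compact S hSc y) (sec_convex S hSconv y)
      intro a ha b hb
      obtain ⟨ka, hka, hka'⟩ := ha
      obtain ⟨kb, hkb, hkb'⟩ := hb
      have hmid : ((1:ℝ)/2) • kb + ((1:ℝ)/2) • (-ka) ∈ K :=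
        hKconv hkb (hKsymm _ hka) (by norm_num) (by norm_num) (by norm_num)
      have he : ((1:ℝ)/2) • kb + ((1:ℝ)/2) • (-ka) = ((b - a) / 2) • v := by
        apply L.injective
        simp only [map_add, map_smul, map_neg, hL, hka', hkb']
        ext
        · simp
        · simp; ring
      rw [he] at hmid
      have := hρ _ hmid
      linarith

/-- the real-number inequality behind the volume comparison -/
lemma real_vol_ineq {a β R lam : ℝ} (ha : 0 < a) (hβ : 0 ≤ β) (hR : 0 < R)
    (hle : a ≤ 2 * (1 / R) * β) (h0 : 0 ≤ lam) (h1 : lam ≤ 1) :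
    a ^ (1 - lam) * (a + 2 * β) ^ lam ≤ a + 2 * (((1 + R) ^ lam - 1) / R) * β := by
  set c := 2 * β / a with hc
  have hcR : R ≤ c := by
    rw [hc, le_div_iff₀ ha]
    have : a * R ≤ 2 * β := by
      calc a * R ≤ (2 * (1 / R) * β) * R := by gcongr
        _ = 2 * β := by field_simp
    linarith
  have hc0 : 0 < c := lt_of_lt_of_le hR hcR
  have hch := chord_rpow h0 h1 hR.le hcR hc0
  have e1 : a + 2 * β = a * (1 + c) := by rw [hc]; field_simp
  have e2 : a ^ (1 - lam) * (a + 2 * β) ^ lam = a * (1 + c) ^ lam := by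
    rw [e1, Real.mul_rpow ha.le (by linarith), ← mul_assoc, ← Real.rpow_add ha]
    simp
  rw [e2]
  have e3 : a + 2 * (((1 + R) ^ lam - 1) / R) * β = a * (1 + c / R * ((1 + R) ^ lam - 1)) := by
    rw [hc]; field_simp
  rw [e3]
  apply mul_le_mul_of_nonneg_left _ ha.le
  have h3 : R / c * ((1 + c) ^ lam - 1) ≤ (1 + R) ^ lam - 1 := by linarith
  have h4 : (1 + c) ^ lam - 1 ≤ c / R * ((1 + R) ^ lam - 1) := by
    have : (1 + c) ^ lam - 1 = c / R * (R / c * ((1 + c) ^ lam - 1)) := by field_simp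
    rw [this]
    gcongr
  linarith

/-- Volume comparison: `|K|^(1-lam) |K + [-v,v]|^lam ≤ |K + s[-v,v]|`. -/
lemma vol_ineq {E : Type*} [NormedAddCommGroup E] [NormedSpace ℝ E] [FiniteDimensional ℝ E]
    [MeasurableSpace E] [BorelSpace E] (μ : Measure E) [μ.IsAddHaarMeasure]
    (K : Set E) (hKc : IsCompact K) (hKconv : Convex ℝ K) (hKsymm : ∀ x ∈ K, -x ∈ K)
    (hKpos : 0 < μ K)
    (v : E) (hv : v ≠ 0) (R : ℝ) (hR : 0 < R) (hρ : ∀ a : ℝ, a • v ∈ K → a ≤ 1 / R)
    (lam : ℝ) (h0 : 0 ≤ lam) (h1 : lam ≤ 1) :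
    μ K ^ (1 - lam) * μ (K + segment ℝ (-v) v) ^ lam ≤
      μ (K + segment ℝ (-((((1 + R) ^ lam - 1) / R) • v)) ((((1 + R) ^ lam - 1) / R) • v)) := by
  obtain ⟨B, hB1, hB2⟩ := exists_slope μ K hKc hKconv hKsymm v hv (1 / R) hρ
  have hs : 0 ≤ ((1 + R) ^ lam - 1) / R := by
    apply div_nonneg _ hR.le
    have : (1:ℝ) ≤ (1 + R) ^ lam := Real.one_le_rpow (by linarith) h0
    linarith
  have hp1 := hB1 1 zero_le_one
  have hps := hB1 _ hs
  simp only [one_smul, mul_one] at hp1
  have hfin : μ (K + segment ℝ (-v) v) ≠ ⊤ := by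
    have hcomp : IsCompact (K + segment ℝ (-v) v) := by
      apply hKc.add
      have := segment_smul_eq v zero_le_one
      simp only [one_smul] at this
      rw [this]
      exact isCompact_Icc.image (by fun_prop)
    exact hcomp.measure_lt_top.ne
  have hKfin : μ K ≠ ⊤ := hKc.measure_lt_top.ne
  have hBfin : B ≠ ⊤ := by
    intro h
    rw [hp1, h] at hfin
    simp at hfin
  rw [hps, hp1]
  set a := (μ K).toReal with ha
  set β := B.toReal with hβ
  have ea : μ K = ENNReal.ofReal a := (ENNReal.ofReal_toReal hKfin).symm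
  have eβ : B = ENNReal.ofReal β := (ENNReal.ofReal_toReal hBfin).symm
  have ha0 : 0 < a := ENNReal.toReal_pos hKpos.ne' hKfin
  have hβ0 : 0 ≤ β := ENNReal.toReal_nonneg
  rw [ea, eβ] at hB2 ⊢
  rw [← ENNReal.ofReal_mul (by positivity)] at hB2
  have hle : a ≤ 2 * (1 / R) * β := by
    rwa [ENNReal.ofReal_le_ofReal_iff (by positivity)] at hB2
  rw [← ENNReal.ofReal_mul (by positivity), ← ENNReal.ofReal_mul (by positivity),
    ← ENNReal.ofReal_add ha0.le (by positivity), ← ENNReal.ofReal_add ha0.le (by positivity),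
    ENNReal.ofReal_rpow_of_pos ha0, ENNReal.ofReal_rpow_of_pos (by positivity),
    ← ENNReal.ofReal_mul (by positivity)]
  exact ENNReal.ofReal_le_ofReal (real_vol_ineq ha0 hβ0 hR hle h0 h1)

section support

variable {n : ℕ}

lemma bddAbove_inner_image {K : Set (Eu n)} (hK : IsCompact K) (u : Eu n) :
    BddAbove ((fun x : Eu n => inner ℝ x u) '' K) :=
  (hK.image (by fun_prop)).bddAbove

lemma le_supportFn {K : Set (Eu n)} (hK : IsCompact K) {x : Eu n} (hx : x ∈ K) (u : Eu n) :
    inner ℝ x u ≤ supportFn K u :=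
  le_csSup (bddAbove_inner_image hK u) ⟨x, hx, rfl⟩

lemma zero_mem_interior {K : Set (Eu n)} (hK : IsConvexBody K) (hs : IsOriginSymmetric K) :
    (0 : Eu n) ∈ interior K := by
  obtain ⟨x, hx⟩ := hK.2.2
  have hneg : (Homeomorph.neg (Eu n)) ⁻¹' K = K := by
    ext y
    constructor
    · intro hy
      have := hs _ hy
      simpa using this
    · intro hy
      exact hs _ hy
  have hx' : -x ∈ interior K := by
    have h1 := (Homeomorph.neg (Eu n)).preimage_interior K
    rw [hneg] at h1
    rw [← h1]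
    show - -x ∈ interior K
    simpa using hx
  have := hK.2.1.interior hx hx' (a := 1 / 2) (b := 1 / 2) (by norm_num) (by norm_num)
    (by norm_num)
  simpa using this

lemma supportFn_pos {K : Set (Eu n)} (hK : IsConvexBody K) (hs : IsOriginSymmetric K)
    {u : Eu n} (hu : u ≠ 0) : 0 < supportFn K u := by
  have h0 := zero_mem_interior hK hs
  rw [mem_interior_iff_mem_nhds, Metric.mem_nhds_iff] at h0
  obtain ⟨ε, hε, hball⟩ := h0
  have hnu : 0 < ‖u‖ := norm_pos_iff.2 hu
  have hmem : ((ε / 2) / ‖u‖) • u ∈ K := by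
    apply hball
    rw [mem_ball_zero_iff, norm_smul, Real.norm_eq_abs, abs_of_pos (by positivity)]
    rw [div_mul_cancel₀ _ hnu.ne']
    linarith
  have := le_supportFn hK.1 hmem u
  rw [real_inner_smul_left, real_inner_self_eq_norm_sq] at this
  have h2 : 0 < ε / 2 / ‖u‖ * ‖u‖ ^ 2 := by positivity
  linarith

lemma supportFn_add_segment {K : Set (Eu n)} (hK : IsCompact K) (hne : K.Nonempty) (v u : Eu n) :
    supportFn K u + |inner ℝ v u| ≤ supportFn (K + segment ℝ (-v) v) u := by
  have hcomp : IsCompact (K + segment ℝ (-v) v) := by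
    apply hK.add
    have := segment_smul_eq v zero_le_one
    simp only [one_smul] at this
    rw [this]
    exact isCompact_Icc.image (by fun_prop)
  have key : ∀ x ∈ K, inner ℝ x u ≤ supportFn (K + segment ℝ (-v) v) u - |inner ℝ v u| := by
    intro x hx
    rcases le_total 0 (inner ℝ v u) with h | h
    · have hm : x + v ∈ K + segment ℝ (-v) v := ⟨x, hx, v, right_mem_segment ℝ _ _, rfl⟩
      have := le_supportFn hcomp hm u
      rw [inner_add_left] at this
      rw [abs_of_nonneg h]
      linarith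
    · have hm : x + -v ∈ K + segment ℝ (-v) v := ⟨x, hx, -v, left_mem_segment ℝ _ _, rfl⟩
      have := le_supportFn hcomp hm u
      rw [inner_add_left, inner_neg_left] at this
      rw [abs_of_nonpos h]
      linarith
  have : supportFn K u ≤ supportFn (K + segment ℝ (-v) v) u - |inner ℝ v u| := by
    apply csSup_le (hne.image _)
    rintro _ ⟨x, hx, rfl⟩
    exact key x hx
  linarith

/-- The inner body `K + s[-v,v]` lies in the logarithmic combination. -/
lemma inner_body_subset {K : Set (Eu n)} (hK : IsConvexBody K) (hs : IsOriginSymmetric K)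
    (v : Eu n) (R : ℝ) (hR : 0 < R) (hv : (1 / R) • v ∈ K)
    (lam : ℝ) (h0 : 0 ≤ lam) (h1 : lam ≤ 1) :
    K + segment ℝ (-((((1 + R) ^ lam - 1) / R) • v)) ((((1 + R) ^ lam - 1) / R) • v) ⊆
      logComb K (K + segment ℝ (-v) v) lam := by
  have hs0 : 0 ≤ ((1 + R) ^ lam - 1) / R := by
    apply div_nonneg _ hR.le
    have : (1:ℝ) ≤ (1 + R) ^ lam := Real.one_le_rpow (by linarith) h0
    linarith
  set s := ((1 + R) ^ lam - 1) / R with hsdef
  rw [segment_smul_eq v hs0]
  rintro _ ⟨k, hk, _, ⟨c, hc, rfl⟩, rfl⟩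
  intro u hu
  have hu0 : u ≠ 0 := by
    intro h; rw [h, norm_zero] at hu; exact zero_ne_one hu
  set h := supportFn K u with hh
  set w := |inner ℝ v u| with hw
  have hpos : 0 < h := supportFn_pos hK hs hu0
  have hw0 : 0 ≤ w := abs_nonneg _
  have hne : K.Nonempty := ⟨k, hk⟩
  have hL : h + w ≤ supportFn (K + segment ℝ (-v) v) u := supportFn_add_segment hK.1 hne v u
  have hwR : w ≤ R * h := by
    have a1 := le_supportFn hK.1 hv u
    have a2 := le_supportFn hK.1 (hs _ hv) u
    rw [real_inner_smul_left] at a1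
    rw [inner_neg_left, real_inner_smul_left] at a2
    have b1 : inner ℝ v u ≤ R * h := by
      have : R * (1 / R * inner ℝ v u) ≤ R * h := by gcongr
      rwa [← mul_assoc, mul_one_div_cancel hR.ne', one_mul] at this
    have b2 : -(inner ℝ v u) ≤ R * h := by
      have : R * (-(1 / R * inner ℝ v u)) ≤ R * h := by gcongr
      rwa [mul_neg, ← mul_assoc, mul_one_div_cancel hR.ne', one_mul] at this
    exact abs_le.2 ⟨by linarith, b1⟩
  have hr0 : 0 ≤ w / h := by positivity
  have hrR : w / h ≤ R := by rw [div_le_iff₀ hpos]; exact hwR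
  have hch := chord_rpow h0 h1 hr0 hrR hR
  -- left side
  have hleft : inner ℝ (k + c • v) u ≤ h + s * w := by
    rw [inner_add_left, real_inner_smul_left]
    have a1 := le_supportFn hK.1 hk u
    have a2 : c * inner ℝ v u ≤ s * w := by
      calc c * inner ℝ v u ≤ |c * inner ℝ v u| := le_abs_self _
        _ = |c| * w := abs_mul _ _
        _ ≤ s * w := by
          gcongr
          exact abs_le.2 hc
    linarith
  have hmid : h + s * w ≤ h ^ (1 - lam) * (h + w) ^ lam := by
    have e1 : h + w = h * (1 + w / h) := by field_simp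
    rw [e1, Real.mul_rpow hpos.le (by positivity), ← mul_assoc, ← Real.rpow_add hpos]
    simp only [sub_add_cancel, Real.rpow_one]
    have e2 : h + s * w = h * (1 + w / h / R * ((1 + R) ^ lam - 1)) := by
      rw [hsdef]; field_simp
    rw [e2]
    gcongr
  have hright : h ^ (1 - lam) * (h + w) ^ lam ≤
      h ^ (1 - lam) * supportFn (K + segment ℝ (-v) v) u ^ lam := by
    gcongr
  exact hleft.trans (hmid.trans hright)

lemma self_subset_logComb {K : Set (Eu n)} (hK : IsConvexBody K) (hs : IsOriginSymmetric K)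
    (lam : ℝ) : K ⊆ logComb K K lam := by
  intro x hx u hu
  have hu0 : u ≠ 0 := by
    intro h; rw [h, norm_zero] at hu; exact zero_ne_one hu
  have hpos : 0 < supportFn K u := supportFn_pos hK hs hu0
  show inner ℝ x u ≤ supportFn K u ^ (1 - lam) * supportFn K u ^ lam
  rw [← Real.rpow_add hpos]
  simp only [sub_add_cancel, Real.rpow_one]
  exact le_supportFn hK.1 hx u

end support

section main

variable {n : ℕ}

lemma isCompact_add_segment {K : Set (Eu n)} (hK : IsCompact K) (v : Eu n) :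
    IsCompact (K + segment ℝ (-v) v) := by
  apply hK.add
  have := segment_smul_eq v zero_le_one
  simp only [one_smul] at this
  rw [this]
  exact isCompact_Icc.image (by fun_prop)

lemma isConvexBody_add_segment {K : Set (Eu n)} (hK : IsConvexBody K) (v : Eu n) :
    IsConvexBody (K + segment ℝ (-v) v) := by
  refine ⟨isCompact_add_segment hK.1 v, hK.2.1.add (convex_segment _ _), ?_⟩
  have hsub : K ⊆ K + segment ℝ (-v) v := by
    intro x hx
    refine ⟨x, hx, 0, ?_, add_zero x⟩
    refine ⟨1 / 2, 1 / 2, by norm_num, by norm_num, by norm_num, ?_⟩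
    simp
  exact hK.2.2.mono (interior_mono hsub)

lemma isOriginSymmetric_add_segment {K : Set (Eu n)} (hs : IsOriginSymmetric K) (v : Eu n) :
    IsOriginSymmetric (K + segment ℝ (-v) v) := by
  rintro _ ⟨k, hk, z, ⟨a, b, ha, hb, hab, rfl⟩, rfl⟩
  refine ⟨-k, hs _ hk, -(a • -v + b • v), ⟨b, a, hb, ha, by linarith, ?_⟩, (neg_add _ _).symm⟩
  simp only [smul_neg, neg_add_rev, neg_neg]

/-- Logarithmic Brunn-Minkowski for `(K, K + [-v, v])`. -/
theorem logBM_add_segment (K : Set (Eu n)) (hK : IsConvexBody K) (hs : IsOriginSymmetric K)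
    (v : Eu n) (lam : ℝ) (h0 : 0 ≤ lam) (h1 : lam ≤ 1) :
    volume K ^ (1 - lam) * volume (K + segment ℝ (-v) v) ^ lam ≤
      volume (logComb K (K + segment ℝ (-v) v) lam) := by
  have hint := zero_mem_interior hK hs
  have hpos : 0 < volume K :=
    lt_of_lt_of_le (isOpen_interior.measure_pos volume hK.2.2) (measure_mono interior_subset)
  have hfin : volume K ≠ ⊤ := hK.1.measure_lt_top.ne
  rcases eq_or_ne v 0 with rfl | hv
  · have e : K + segment ℝ (-(0 : Eu n)) 0 = K := by simp
    rw [e, ← ENNReal.rpow_add _ _ hpos.ne' hfin]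
    simp only [sub_add_cancel, ENNReal.rpow_one]
    exact measure_mono (self_subset_logComb hK hs lam)
  · have hnhds : K ∈ nhds (0 : Eu n) := mem_interior_iff_mem_nhds.1 hint
    have habs : Absorbent ℝ K := absorbent_nhds_zero hnhds
    have hbdd : Bornology.IsVonNBounded ℝ K := NormedSpace.isVonNBounded_iff ℝ |>.2 hK.1.isBounded
    set R := gauge K v with hRdef
    have hR : 0 < R := (gauge_pos habs hbdd).2 hv
    have hmem : (1 / R) • v ∈ K := by
      have h2 : gauge K ((1 / R) • v) ≤ 1 := by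
        rw [gauge_smul_of_nonneg (by positivity), smul_eq_mul, ← hRdef,
          one_div_mul_cancel hR.ne']
      have := (gauge_le_one_iff_mem_closure hK.2.1 hnhds).1 h2
      rwa [hK.1.isClosed.closure_eq] at this
    have hρ : ∀ a : ℝ, a • v ∈ K → a ≤ 1 / R := by
      intro a ha
      rcases le_total a 0 with h | h
      · exact h.trans (by positivity)
      · have h2 := gauge_le_one_of_mem ha
        rw [gauge_smul_of_nonneg h, smul_eq_mul, ← hRdef] at h2
        rw [le_div_iff₀ hR]
        exact h2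
    exact (vol_ineq volume K hK.1 hK.2.1 hs hpos v hv R hR hρ lam h0 h1).trans
      (measure_mono (inner_body_subset hK hs v R hR hmem lam h0 h1))

end main

end Vale.Agent.Lib.P227
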